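import Mathlib
import Vale.Agent.P065.Defs
import Vale.Agent.P065.Bridge

open Vale.Agent.P065

theorem Vale.Agent.Results.P065.ConvexCover.result
    (P : Finset (ℝ × ℝ)) (hP : NoThreeCollinear P)
    (F : Finset (Finset (ℝ × ℝ)))
    (hcov : ∀ p ∈ P, ∃ A ∈ F, p ∈ A)
    (hconv : ∀ A ∈ F, ConvexIndependent ℝ (fun a : A => (a : ℝ × ℝ))) :
    2 * halvingCount P + P.card ≤ 2 * F.card * P.card :=
  cover_bound P hP F hcov hconv
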