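import Mathlib
import Vale.Agent.P065.Defs
import Vale.Agent.P065.KDefs
import Vale.Agent.P065.KBridge

open Vale.Agent.P065

theorem Vale.Agent.Results.P065.KSetCover.result
    (P : Finset (ℝ × ℝ)) (hP : NoThreeCollinear P)
    (F : Finset (Finset (ℝ × ℝ)))
    (hcov : ∀ p ∈ P, ∃ A ∈ F, p ∈ A)
    (hconv : ∀ A ∈ F, ConvexIndependent ℝ (fun a : A => (a : ℝ × ℝ)))
    (k : ℕ) (hk1 : 1 ≤ k) (hk2 : k < P.card) :
    kSetCount P k + P.card ≤ 2 * F.card * P.card :=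
  kset_cover_bound P hP F hcov hconv k hk1 hk2
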